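import Vale.Agent.P141.Defs

open MeasureTheory Filter Topology Set
open scoped ENNReal NNReal SchwartzMap ContDiff

namespace Vale.Agent.P141

/-- The basic bump. -/
noncomputable def psi : ContDiffBump (0 : ℝ) := ⟨1 / 10, 1 / 5, by norm_num, by norm_num⟩

lemma psi_nonneg (y : ℝ) : 0 ≤ psi y := psi.nonneg

lemma psi_le_one (y : ℝ) : psi y ≤ 1 := psi.le_one

lemma psi_eq_one {y : ℝ} (h : |y| ≤ 1 / 10) : psi y = 1 := by
  apply psi.one_of_mem_closedBall
  simpa [Metric.mem_closedBall, Real.dist_eq, psi] using h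

lemma psi_eq_zero {y : ℝ} (h : 1 / 5 ≤ |y|) : psi y = 0 := by
  apply psi.zero_of_le_dist
  simpa [Real.dist_eq, psi] using h

/-- Sum of bumps at the points of a finite set of integers. -/
noncomputable def F (S : Finset ℤ) (y : ℝ) : ℝ := ∑ s ∈ S, psi (y - s)

lemma F_nonneg (S : Finset ℤ) (y : ℝ) : 0 ≤ F S y :=
  Finset.sum_nonneg fun _ _ => psi_nonneg _

lemma F_ne_zero {S : Finset ℤ} {y : ℝ} (h : F S y ≠ 0) : ∃ s ∈ S, |y - s| < 1 / 5 := by
  by_contra hcon
  push Not at hcon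
  exact h (Finset.sum_eq_zero fun s hs => psi_eq_zero (hcon s hs))

lemma F_le_one (S : Finset ℤ) (y : ℝ) : F S y ≤ 1 := by
  by_cases h : F S y = 0
  · rw [h]; norm_num
  obtain ⟨s₀, hs₀, hy⟩ := F_ne_zero h
  have : F S y = psi (y - s₀) := by
    apply Finset.sum_eq_single_of_mem s₀ hs₀
    intro s _ hne
    apply psi_eq_zero
    have hint : (1 : ℝ) ≤ |(s : ℝ) - s₀| := by
      have h1 : (1 : ℤ) ≤ |s - s₀| := Int.one_le_abs (sub_ne_zero.mpr hne)
      exact_mod_cast h1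
    have htri : |(s : ℝ) - s₀| ≤ |y - s| + |y - s₀| := by
      have : (s : ℝ) - s₀ = (y - s₀) - (y - s) := by ring
      rw [this]
      calc |(y - s₀) - (y - s)| ≤ |y - s₀| + |y - s| := abs_sub _ _
        _ = _ := add_comm _ _
    linarith
  rw [this]; exact psi_le_one _

lemma F_ge_one {S : Finset ℤ} {y : ℝ} {s : ℤ} (hs : s ∈ S) (hy : |y - s| ≤ 1 / 10) :
    1 ≤ F S y := by
  have h1 : psi (y - s) ≤ F S y :=
    Finset.single_le_sum (f := fun s : ℤ => psi (y - s)) (fun _ _ => psi_nonneg _) hs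
  rw [psi_eq_one hy] at h1
  exact h1

lemma F_contDiff (S : Finset ℤ) : ContDiff ℝ ∞ (F S) := by
  unfold F
  apply ContDiff.sum
  intro s _
  exact psi.contDiff.comp (contDiff_id.sub contDiff_const)

lemma F_continuous (S : Finset ℤ) : Continuous (F S) := (F_contDiff S).continuous

lemma F_eq_zero_of_far {S : Finset ℤ} {y : ℝ} (h : y ∉ ⋃ s ∈ S, Metric.closedBall (s : ℝ) 1) :
    F S y = 0 := by
  by_contra hne
  obtain ⟨s, hs, hy⟩ := F_ne_zero hne
  apply h
  simp only [mem_iUnion]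
  refine ⟨s, hs, ?_⟩
  rw [Metric.mem_closedBall, Real.dist_eq]
  linarith

lemma F_compact (S : Finset ℤ) : HasCompactSupport (F S) := by
  apply HasCompactSupport.intro (K := ⋃ s ∈ S, Metric.closedBall (s : ℝ) 1)
  · exact S.isCompact_biUnion fun s _ => isCompact_closedBall _ _
  · intro y hy
    exact F_eq_zero_of_far hy

lemma cF_compact (S : Finset ℤ) : HasCompactSupport (fun y => (F S y : ℂ)) :=
  (F_compact S).comp_left (g := fun r : ℝ => (r : ℂ)) (by simp)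

lemma cF_contDiff (S : Finset ℤ) : ContDiff ℝ ∞ (fun y => (F S y : ℂ)) :=
  Complex.ofRealCLM.contDiff.comp (F_contDiff S)

/-- The Schwartz function attached to `S`. -/
noncomputable def sF (S : Finset ℤ) : 𝓢(ℝ, ℂ) := (cF_compact S).toSchwartzMap (cF_contDiff S)

@[simp] lemma sF_apply (S : Finset ℤ) (y : ℝ) : sF S y = (F S y : ℂ) := rfl

/-- The real integrand. -/
noncomputable def h (A B C : Finset ℤ) (y t : ℝ) : ℝ :=
  F A (y - t) * F B (y - 2 * t) * F C (y - 3 * t) * t⁻¹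

/-- The real product without the kernel. -/
noncomputable def P (A B C : Finset ℤ) (y t : ℝ) : ℝ :=
  F A (y - t) * F B (y - 2 * t) * F C (y - 3 * t)

lemma P_continuous (A B C : Finset ℤ) (y : ℝ) : Continuous (P A B C y) := by
  unfold P
  have h1 := F_continuous A
  have h2 := F_continuous B
  have h3 := F_continuous C
  fun_prop

lemma P_nonneg (A B C : Finset ℤ) (y t : ℝ) : 0 ≤ P A B C y t :=
  mul_nonneg (mul_nonneg (F_nonneg _ _) (F_nonneg _ _)) (F_nonneg _ _)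

lemma P_ne_zero_left {A B C : Finset ℤ} {y t : ℝ} (hP : P A B C y t ≠ 0) :
    F A (y - t) ≠ 0 := by
  intro h0
  apply hP
  simp [P, h0]

/-- A bound for the integers of a finite set. -/
lemma exists_bound (S : Finset ℤ) : ∃ M : ℝ, 0 ≤ M ∧ ∀ s ∈ S, |(s : ℝ)| ≤ M := by
  refine ⟨∑ s ∈ S, |(s : ℝ)|, Finset.sum_nonneg fun _ _ => abs_nonneg _, fun s hs => ?_⟩
  exact Finset.single_le_sum (f := fun s : ℤ => |(s : ℝ)|) (fun _ _ => abs_nonneg _) hs

/-- Where the integrand lives, when `y` is to the right of `A`. -/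
lemma support_bound {A B C : Finset ℤ} {y : ℝ} (hy : ∀ a ∈ A, (a : ℝ) + 3 / 4 ≤ y) :
    ∃ R₀ : ℝ, 0 ≤ R₀ ∧ ∀ t : ℝ, P A B C y t ≠ 0 → 1 / 2 < t ∧ t < R₀ := by
  obtain ⟨M, hM0, hM⟩ := exists_bound A
  refine ⟨|y| + M + 1, by positivity, fun t ht => ?_⟩
  obtain ⟨a, ha, hya⟩ := F_ne_zero (P_ne_zero_left ht)
  have h1 := hy a ha
  have h2 := hM a ha
  have h3 := abs_lt.mp hya
  have h4 := abs_le.mp h2
  have h5 := le_abs_self y
  constructor <;> linarith [h3.1, h3.2, h4.1, h4.2]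

lemma h_eq_zero_of_P {A B C : Finset ℤ} {y t : ℝ} (hP : P A B C y t = 0) : h A B C y t = 0 := by
  have : h A B C y t = P A B C y t * t⁻¹ := rfl
  rw [this, hP, zero_mul]

lemma h_nonneg {A B C : Finset ℤ} {y : ℝ} (hy : ∀ a ∈ A, (a : ℝ) + 3 / 4 ≤ y) (t : ℝ) :
    0 ≤ h A B C y t := by
  obtain ⟨R₀, _, hR⟩ := support_bound (B := B) (C := C) hy
  by_cases hP : P A B C y t = 0
  · rw [h_eq_zero_of_P hP]
  · have ht := (hR t hP).1
    have : h A B C y t = P A B C y t * t⁻¹ := rfl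
    rw [this]
    exact mul_nonneg (P_nonneg _ _ _ _ _) (inv_nonneg.mpr (by linarith))

lemma h_integrable {A B C : Finset ℤ} {y : ℝ} (hy : ∀ a ∈ A, (a : ℝ) + 3 / 4 ≤ y) :
    Integrable (h A B C y) volume := by
  obtain ⟨R₀, hR0, hR⟩ := support_bound (B := B) (C := C) hy
  have hPc : HasCompactSupport (P A B C y) := by
    apply HasCompactSupport.intro (K := Metric.closedBall (0 : ℝ) R₀) (isCompact_closedBall _ _)
    intro t ht
    by_contra hne
    apply ht
    have := hR t hne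
    rw [Metric.mem_closedBall, Real.dist_eq, sub_zero, abs_of_pos (by linarith [this.1])]
    exact this.2.le
  have hPi : Integrable (P A B C y) volume :=
    (P_continuous A B C y).integrable_of_hasCompactSupport hPc
  have hmeas : AEStronglyMeasurable (h A B C y) volume := by
    have : h A B C y = fun t => P A B C y t * t⁻¹ := rfl
    rw [this]
    exact (P_continuous A B C y).aestronglyMeasurable.mul measurable_inv.aestronglyMeasurable
  refine Integrable.mono' (hPi.const_mul 2) hmeas (ae_of_all _ fun t => ?_)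
  by_cases hP : P A B C y t = 0
  · rw [h_eq_zero_of_P hP, hP]; simp
  · have ht := (hR t hP).1
    have e : h A B C y t = P A B C y t * t⁻¹ := rfl
    have hP0 := P_nonneg A B C y t
    have hti : t⁻¹ ≤ 2 := by
      rw [inv_le_comm₀ (by linarith) (by norm_num)]
      linarith
    have htp : 0 ≤ t⁻¹ := inv_nonneg.mpr (by linarith)
    rw [e, Real.norm_of_nonneg (mul_nonneg hP0 htp)]
    nlinarith

lemma trunc_eq {A B C : Finset ℤ} {y : ℝ} {R₀ : ℝ}
    (hR : ∀ t : ℝ, P A B C y t ≠ 0 → 1 / 2 < t ∧ t < R₀) {ε R : ℝ} (hε : ε < 1 / 2) (hRR : R₀ < R) :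
    truncT (sF A) (sF B) (sF C) ε R y = ((∫ t, h A B C y t : ℝ) : ℂ) := by
  have e : ∀ t : ℝ, (sF A) (y - t) * (sF B) (y - 2 * t) * (sF C) (y - 3 * t) * ((t : ℂ)⁻¹)
      = ((h A B C y t : ℝ) : ℂ) := by
    intro t
    simp only [sF_apply, h]
    push_cast
    ring
  unfold truncT
  simp_rw [e]
  rw [setIntegral_eq_integral_of_forall_compl_eq_zero, integral_complex_ofReal]
  intro t ht
  have hP0 : P A B C y t = 0 := by
    by_contra hne
    obtain ⟨h1, h2⟩ := hR t hne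
    apply ht
    refine ⟨?_, ?_⟩
    · rw [abs_of_pos (by linarith)]; linarith
    · rw [abs_of_pos (by linarith)]; linarith
  rw [h_eq_zero_of_P hP0]
  simp

lemma pvT_eq {A B C : Finset ℤ} {y : ℝ} (hy : ∀ a ∈ A, (a : ℝ) + 3 / 4 ≤ y) :
    pvT (sF A) (sF B) (sF C) y = ((∫ t, h A B C y t : ℝ) : ℂ) := by
  obtain ⟨R₀, _, hR⟩ := support_bound (B := B) (C := C) hy
  unfold pvT
  apply Tendsto.limUnder_eq
  apply tendsto_const_nhds.congr'
  have h1 : ∀ᶠ ε : ℝ in 𝓝[>] (0 : ℝ), ε < 1 / 2 := by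
    apply eventually_nhdsWithin_of_eventually_nhds
    exact eventually_lt_nhds (by norm_num)
  have h2 : ∀ᶠ R : ℝ in atTop, R₀ < R := eventually_gt_atTop R₀
  filter_upwards [h1.prod_mk h2] with q hq
  exact (trunc_eq hR hq.1 hq.2).symm

/-- Lower bound for the integral over the good `t`-interval. -/
lemma integral_lower {A B C : Finset ℤ} {y : ℝ} {x t₀ : ℤ} {L : ℝ} (hL : 0 ≤ L)
    (hy : |y - x| ≤ 1 / 40) (hA : x - t₀ ∈ A) (hB : x - 2 * t₀ ∈ B) (hC : x - 3 * t₀ ∈ C)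
    (ht₀ : (t₀ : ℝ) ≤ L) (hx : ∀ a ∈ A, (1 : ℤ) ≤ x - a) :
    1 / (20 * (L + 1)) ≤ ∫ t, h A B C y t := by
  have hya : ∀ a ∈ A, (a : ℝ) + 3 / 4 ≤ y := by
    intro a ha
    have h1 : (1 : ℝ) ≤ (x : ℝ) - a := by exact_mod_cast hx a ha
    have h2 := (abs_le.mp hy).1
    linarith
  have ht₁ : (1 : ℝ) ≤ t₀ := by
    have := hx _ hA
    have h3 : (1 : ℤ) ≤ t₀ := by linarith
    exact_mod_cast h3
  have hint := h_integrable (B := B) (C := C) hya
  have hnn := h_nonneg (B := B) (C := C) hya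
  set S : Set ℝ := Icc ((t₀ : ℝ) - 1 / 40) ((t₀ : ℝ) + 1 / 40) with hS
  have hLpos : 0 < L + 1 := by linarith
  have hconst : ∀ t ∈ S, 1 / (L + 1) ≤ h A B C y t := by
    intro t ht
    have ht1 : |t - (t₀ : ℝ)| ≤ 1 / 40 := abs_le.mpr ⟨by linarith [ht.1], by linarith [ht.2]⟩
    have hy' := abs_le.mp hy
    have ht' := abs_le.mp ht1
    have hFA : 1 ≤ F A (y - t) := by
      apply F_ge_one hA
      push_cast
      rw [abs_le]
      constructor <;> linarith [hy'.1, hy'.2, ht'.1, ht'.2]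
    have hFB : 1 ≤ F B (y - 2 * t) := by
      apply F_ge_one hB
      push_cast
      rw [abs_le]
      constructor <;> linarith [hy'.1, hy'.2, ht'.1, ht'.2]
    have hFC : 1 ≤ F C (y - 3 * t) := by
      apply F_ge_one hC
      push_cast
      rw [abs_le]
      constructor <;> linarith [hy'.1, hy'.2, ht'.1, ht'.2]
    have htpos : 0 < t := by linarith [ht.1]
    have htle : t ≤ L + 1 := by linarith [ht.2]
    have hinv : 1 / (L + 1) ≤ t⁻¹ := by
      rw [one_div]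
      exact inv_anti₀ htpos htle
    have hP1 : 1 ≤ F A (y - t) * F B (y - 2 * t) * F C (y - 3 * t) := by
      have h12 : 1 ≤ F A (y - t) * F B (y - 2 * t) := one_le_mul_of_one_le_of_one_le hFA hFB
      exact one_le_mul_of_one_le_of_one_le h12 hFC
    have hinvpos : 0 ≤ t⁻¹ := inv_nonneg.mpr htpos.le
    unfold h
    nlinarith
  have hmeasS : MeasurableSet S := measurableSet_Icc
  have hvol : volume.real S = 1 / 20 := by
    rw [hS, Real.volume_real_Icc]
    rw [max_eq_left (by linarith)]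
    ring
  have h1 := setIntegral_ge_of_const_le (μ := volume) hmeasS (by
      rw [hS, Real.volume_Icc]; exact ENNReal.ofReal_ne_top) hconst hint.integrableOn
  have h2 : ∫ t in S, h A B C y t ≤ ∫ t, h A B C y t :=
    setIntegral_le_integral hint (ae_of_all _ hnn)
  rw [hvol] at h1
  calc 1 / (20 * (L + 1)) = (1 / 20 : ℝ) • (1 / (L + 1)) := by
        rw [smul_eq_mul]; field_simp
    _ ≤ _ := h1
    _ ≤ _ := h2

/-- Pointwise lower bound for the operator at the points near `x`. -/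
lemma pvT_lower {A B C : Finset ℤ} {y : ℝ} {x t₀ : ℤ} {L : ℝ} (hL : 0 ≤ L)
    (hy : |y - x| ≤ 1 / 40) (hA : x - t₀ ∈ A) (hB : x - 2 * t₀ ∈ B) (hC : x - 3 * t₀ ∈ C)
    (ht₀ : (t₀ : ℝ) ≤ L) (hx : ∀ a ∈ A, (1 : ℤ) ≤ x - a) :
    1 / (20 * (L + 1)) ≤ ‖pvT (sF A) (sF B) (sF C) y‖ := by
  have hya : ∀ a ∈ A, (a : ℝ) + 3 / 4 ≤ y := by
    intro a ha
    have h1 : (1 : ℝ) ≤ (x : ℝ) - a := by exact_mod_cast hx a ha
    have h2 := (abs_le.mp hy).1
    linarith
  have hlow := integral_lower hL hy hA hB hC ht₀ hx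
  have hnn : 0 ≤ ∫ t, h A B C y t := integral_nonneg (h_nonneg hya)
  rw [pvT_eq hya, Complex.norm_real, Real.norm_of_nonneg hnn]
  exact hlow

/-- `L^p` bound for a bump sum. -/
lemma eLpNorm_sF_le (S : Finset ℤ) (p : ℝ≥0∞) :
    eLpNorm (sF S) p volume ≤ (S.card : ℝ≥0∞) ^ (1 / p.toReal) := by
  set V : Set ℝ := ⋃ s ∈ S, Metric.ball (s : ℝ) (1 / 5) with hV
  have hmono : eLpNorm (sF S) p volume ≤ eLpNorm (V.indicator fun _ => (1 : ℝ)) p volume := by
    apply eLpNorm_mono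
    intro y
    by_cases hy : y ∈ V
    · rw [indicator_of_mem hy, sF_apply, Complex.norm_real, Real.norm_of_nonneg (F_nonneg _ _)]
      simpa using F_le_one S y
    · have hF : F S y = 0 := by
        by_contra hne
        obtain ⟨s, hs, hys⟩ := F_ne_zero hne
        apply hy
        simp only [hV, mem_iUnion]
        exact ⟨s, hs, by rw [Metric.mem_ball, Real.dist_eq]; exact hys⟩
      rw [sF_apply, hF]
      simp
  have hind := eLpNorm_indicator_const_le (μ := volume) (s := V) (c := (1 : ℝ)) p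
  have hmeas : volume V ≤ (S.card : ℝ≥0∞) := by
    calc volume V ≤ ∑ s ∈ S, volume (Metric.ball (s : ℝ) (1 / 5)) := measure_biUnion_finset_le _ _
      _ ≤ ∑ _s ∈ S, (1 : ℝ≥0∞) := by
          apply Finset.sum_le_sum
          intro s _
          rw [Real.volume_ball]
          rw [ENNReal.ofReal_le_one]
          norm_num
      _ = (S.card : ℝ≥0∞) := by simp
  have hnn : (0 : ℝ) ≤ 1 / p.toReal := by positivity
  calc eLpNorm (sF S) p volume ≤ _ := hmono
    _ ≤ _ := hind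
    _ ≤ (S.card : ℝ≥0∞) ^ (1 / p.toReal) := by
        simp only [enorm_one, one_mul]
        exact ENNReal.rpow_le_rpow hmeas hnn

/-- The output lower bound on the union of small intervals. -/
lemma eLpNorm_lower {A B C X : Finset ℤ} {L : ℝ} (hL : 0 ≤ L) {r : ℝ≥0∞} (hr0 : r ≠ 0)
    (hrtop : r ≠ ⊤)
    (hX : ∀ x ∈ X, ∃ t₀ : ℤ, x - t₀ ∈ A ∧ x - 2 * t₀ ∈ B ∧ x - 3 * t₀ ∈ C ∧ (t₀ : ℝ) ≤ L)
    (hx : ∀ x ∈ X, ∀ a ∈ A, (1 : ℤ) ≤ x - a) :
    ENNReal.ofReal (1 / (20 * (L + 1))) * (ENNReal.ofReal (X.card / 20)) ^ (1 / r.toReal)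
      ≤ eLpNorm (pvT (sF A) (sF B) (sF C)) r volume := by
  set J : ℤ → Set ℝ := fun x => Icc ((x : ℝ) - 1 / 40) ((x : ℝ) + 1 / 40) with hJ
  set U : Set ℝ := ⋃ x ∈ X, J x with hU
  have hJm : ∀ x, MeasurableSet (J x) := fun x => measurableSet_Icc
  have hUm : MeasurableSet U := X.measurableSet_biUnion fun x _ => hJm x
  set c : ℝ := 1 / (20 * (L + 1)) with hc
  have hcpos : 0 < c := by rw [hc]; positivity
  have hmono : eLpNorm (U.indicator fun _ => c) r volume
      ≤ eLpNorm (pvT (sF A) (sF B) (sF C)) r volume := by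
    apply eLpNorm_mono
    intro y
    by_cases hy : y ∈ U
    · rw [indicator_of_mem hy, Real.norm_of_nonneg hcpos.le]
      simp only [hU, mem_iUnion] at hy
      obtain ⟨x, hxX, hyx⟩ := hy
      obtain ⟨t₀, h1, h2, h3, h4⟩ := hX x hxX
      have hyx' : |y - x| ≤ 1 / 40 := abs_le.mpr ⟨by linarith [hyx.1], by linarith [hyx.2]⟩
      have := pvT_lower hL hyx' h1 h2 h3 h4 (hx x hxX)
      exact this
    · rw [indicator_of_notMem hy]
      simp
  have hvol : volume U = ENNReal.ofReal (X.card / 20) := by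
    rw [hU, measure_biUnion_finset _ (fun x _ => hJm x)]
    · have : ∀ x ∈ X, volume (J x) = ENNReal.ofReal (1 / 20) := by
        intro x _
        rw [hJ, Real.volume_Icc]
        congr 1
        ring
      rw [Finset.sum_congr rfl this, Finset.sum_const, nsmul_eq_mul]
      rw [show ((X.card : ℝ) / 20) = (X.card : ℝ) * (1 / 20) by ring]
      rw [ENNReal.ofReal_mul (by positivity), ENNReal.ofReal_natCast]
    · intro x _ x' _ hne
      rw [Function.onFun, Set.disjoint_left]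
      intro y hy hy'
      have hint : (1 : ℝ) ≤ |(x : ℝ) - x'| := by
        have h1 : (1 : ℤ) ≤ |x - x'| := Int.one_le_abs (sub_ne_zero.mpr hne)
        exact_mod_cast h1
      have h2 : |(x : ℝ) - x'| ≤ 1 / 20 := by
        rw [abs_le]
        constructor <;> linarith [hy.1, hy.2, hy'.1, hy'.2]
      linarith
  have hind := eLpNorm_indicator_const (μ := volume) (c := c) hUm hr0 hrtop
  rw [hind, hvol] at hmono
  have hen : ‖c‖ₑ = ENNReal.ofReal c := by
    rw [Real.enorm_eq_ofReal hcpos.le]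
  rw [hen] at hmono
  exact hmono

/-- Consequence of boundedness for a gadget `A B C X`. -/
lemma gadget_ineq {p₁ p₂ p₃ r : ℝ≥0∞} {K : ℝ≥0}
    (hK : ∀ f₁ f₂ f₃ : 𝓢(ℝ, ℂ), eLpNorm (pvT f₁ f₂ f₃) r volume ≤
      K * (eLpNorm f₁ p₁ volume * eLpNorm f₂ p₂ volume * eLpNorm f₃ p₃ volume))
    (hr0 : r ≠ 0) (hrtop : r ≠ ⊤)
    {A B C X : Finset ℤ} {L : ℝ} (hL : 0 ≤ L)
    (hX : ∀ x ∈ X, ∃ t₀ : ℤ, x - t₀ ∈ A ∧ x - 2 * t₀ ∈ B ∧ x - 3 * t₀ ∈ C ∧ (t₀ : ℝ) ≤ L)
    (hx : ∀ x ∈ X, ∀ a ∈ A, (1 : ℤ) ≤ x - a) :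
    ENNReal.ofReal (1 / (20 * (L + 1))) * (ENNReal.ofReal (X.card / 20)) ^ (1 / r.toReal)
      ≤ K * ((A.card : ℝ≥0∞) ^ (1 / p₁.toReal) * (B.card : ℝ≥0∞) ^ (1 / p₂.toReal)
          * (C.card : ℝ≥0∞) ^ (1 / p₃.toReal)) := by
  refine (eLpNorm_lower hL hr0 hrtop hX hx).trans ((hK _ _ _).trans ?_)
  gcongr
  · exact eLpNorm_sF_le A p₁
  · exact eLpNorm_sF_le B p₂
  · exact eLpNorm_sF_le C p₃

end Vale.Agent.P141
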