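import Mathlib

open MeasureTheory Filter Topology Set
open scoped ENNReal NNReal SchwartzMap

namespace Vale.Agent.P141

/-- The truncated trilinear Hilbert transform with slopes `1, 2, 3`. -/
noncomputable def truncT (f₁ f₂ f₃ : ℝ → ℂ) (ε R x : ℝ) : ℂ :=
  ∫ t in {t : ℝ | ε < |t| ∧ |t| < R},
    f₁ (x - t) * f₂ (x - 2 * t) * f₃ (x - 3 * t) * ((t : ℂ)⁻¹)

/-- The principal value: the limit of `truncT` as `ε → 0+` and `R → ∞`. -/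
noncomputable def pvT (f₁ f₂ f₃ : ℝ → ℂ) (x : ℝ) : ℂ :=
  limUnder (𝓝[>] (0 : ℝ) ×ˢ atTop) fun q : ℝ × ℝ => truncT f₁ f₂ f₃ q.1 q.2 x

/-- Holder tuples: `1 < p₁, p₂, p₃ ≤ ∞`, `0 < r < ∞`, `1/r = 1/p₁ + 1/p₂ + 1/p₃`. -/
def IsHolderTuple (p₁ p₂ p₃ r : ℝ≥0∞) : Prop :=
  1 < p₁ ∧ 1 < p₂ ∧ 1 < p₃ ∧ 0 < r ∧ r < ∞ ∧ 1 / r = 1 / p₁ + 1 / p₂ + 1 / p₃

/-- Boundedness of the principal value operator at a tuple, tested on Schwartz functions. -/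
def BoundedAt (p₁ p₂ p₃ r : ℝ≥0∞) : Prop :=
  ∃ C : ℝ≥0, ∀ f₁ f₂ f₃ : 𝓢(ℝ, ℂ),
    eLpNorm (pvT f₁ f₂ f₃) r volume ≤
      C * (eLpNorm f₁ p₁ volume * eLpNorm f₂ p₂ volume * eLpNorm f₃ p₃ volume)

end Vale.Agent.P141
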