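import Vale.Agent.P141.Core

open MeasureTheory Filter Topology Set
open scoped ENNReal NNReal SchwartzMap

namespace Vale.Agent.P141

/-- Digit recursion: the pairs `(x, t)` at level `k`. -/
def Q (m : ℤ) (D : Finset (ℤ × ℤ)) : ℕ → Finset (ℤ × ℤ)
  | 0 => {(0, 0)}
  | k + 1 => (D ×ˢ Q m D k).image fun u => (u.1.1 + m * u.2.1, u.1.2 + m * u.2.2)

/-- The projection `(x, t) ↦ x - e t`. -/
def proj (e : ℤ) (q : ℤ × ℤ) : ℤ := q.1 - e * q.2

/-- The image of level `k` under a projection. -/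
def img (m : ℤ) (D : Finset (ℤ × ℤ)) (e : ℤ) (k : ℕ) : Finset ℤ := (Q m D k).image (proj e)

lemma mem_Q_succ {m : ℤ} {D : Finset (ℤ × ℤ)} {k : ℕ} {q : ℤ × ℤ} :
    q ∈ Q m D (k + 1) ↔ ∃ d ∈ D, ∃ q' ∈ Q m D k, q = (d.1 + m * q'.1, d.2 + m * q'.2) := by
  simp only [Q, Finset.mem_image, Finset.mem_product]
  constructor
  · rintro ⟨u, ⟨h1, h2⟩, rfl⟩
    exact ⟨u.1, h1, u.2, h2, rfl⟩
  · rintro ⟨d, h1, q', h2, rfl⟩
    exact ⟨(d, q'), ⟨h1, h2⟩, rfl⟩

lemma proj_digit (e m : ℤ) (d q : ℤ × ℤ) :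
    proj e (d.1 + m * q.1, d.2 + m * q.2) = proj e d + m * proj e q := by
  simp only [proj]
  ring

lemma card_img_le {m : ℤ} {D : Finset (ℤ × ℤ)} {e : ℤ} {n : ℕ}
    (hn : (D.image (proj e)).card ≤ n) (k : ℕ) : (img m D e k).card ≤ n ^ k := by
  induction k with
  | zero => simp [img, Q]
  | succ k ih =>
    have hsub : img m D e (k + 1) ⊆
        ((D.image (proj e)) ×ˢ img m D e k).image (fun u => u.1 + m * u.2) := by
      intro z hz
      simp only [img, Finset.mem_image] at hz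
      obtain ⟨q, hq, rfl⟩ := hz
      obtain ⟨d, hd, q', hq', rfl⟩ := mem_Q_succ.mp hq
      rw [proj_digit]
      exact Finset.mem_image.mpr ⟨(proj e d, proj e q'), Finset.mem_product.mpr
        ⟨Finset.mem_image_of_mem _ hd, Finset.mem_image_of_mem _ hq'⟩, rfl⟩
    calc (img m D e (k + 1)).card
        ≤ (((D.image (proj e)) ×ˢ img m D e k).image (fun u => u.1 + m * u.2)).card :=
          Finset.card_le_card hsub
      _ ≤ ((D.image (proj e)) ×ˢ img m D e k).card := Finset.card_image_le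
      _ = (D.image (proj e)).card * (img m D e k).card := Finset.card_product _ _
      _ ≤ n * n ^ k := Nat.mul_le_mul hn ih
      _ = n ^ (k + 1) := by ring

lemma card_img_zero_ge {m : ℤ} {D : Finset (ℤ × ℤ)} (hm : m ≠ 0)
    (hres : ∀ u ∈ D.image (proj 0), ∀ v ∈ D.image (proj 0), m ∣ u - v → u = v) (k : ℕ) :
    (D.image (proj 0)).card ^ k ≤ (img m D 0 k).card := by
  induction k with
  | zero => simp [img, Q]
  | succ k ih =>
    have hsub : ((D.image (proj 0)) ×ˢ img m D 0 k).image (fun u => u.1 + m * u.2) ⊆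
        img m D 0 (k + 1) := by
      intro z hz
      obtain ⟨⟨u, v⟩, huv, rfl⟩ := Finset.mem_image.mp hz
      obtain ⟨hu, hv⟩ := Finset.mem_product.mp huv
      simp only at hu hv
      obtain ⟨d, hd, rfl⟩ := Finset.mem_image.mp hu
      obtain ⟨q', hq', rfl⟩ := Finset.mem_image.mp hv
      simp only [img, Finset.mem_image]
      refine ⟨(d.1 + m * q'.1, d.2 + m * q'.2), mem_Q_succ.mpr ⟨d, hd, q', hq', rfl⟩, ?_⟩
      rw [proj_digit]
    have hinj : Set.InjOn (fun u : ℤ × ℤ => u.1 + m * u.2)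
        ((D.image (proj 0)) ×ˢ img m D 0 k : Finset (ℤ × ℤ)) := by
      rintro ⟨u, v⟩ hu ⟨u', v'⟩ hu' heq
      simp only [Finset.coe_product, Set.mem_prod, Finset.mem_coe] at hu hu'
      simp only at heq
      have hdvd : m ∣ u - u' := ⟨v' - v, by linear_combination heq⟩
      have h1 := hres u hu.1 u' hu'.1 hdvd
      subst h1
      have h2 : m * (v - v') = 0 := by linear_combination heq
      have h3 : v - v' = 0 := by
        rcases mul_eq_zero.mp h2 with h | h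
        · exact absurd h hm
        · exact h
      have h4 : v = v' := by linarith
      rw [h4]
    calc (D.image (proj 0)).card ^ (k + 1)
        = (D.image (proj 0)).card * (D.image (proj 0)).card ^ k := by ring
      _ ≤ (D.image (proj 0)).card * (img m D 0 k).card := Nat.mul_le_mul_left _ ih
      _ = ((D.image (proj 0)) ×ˢ img m D 0 k).card := (Finset.card_product _ _).symm
      _ = (((D.image (proj 0)) ×ˢ img m D 0 k).image (fun u => u.1 + m * u.2)).card :=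
          (Finset.card_image_of_injOn hinj).symm
      _ ≤ _ := Finset.card_le_card hsub

lemma pos_aux {m : ℤ} {D : Finset (ℤ × ℤ)} (hm : 1 ≤ m)
    (hδ : ∀ d ∈ D, ∀ d' ∈ D, 1 ≤ proj 0 d - proj 1 d') (k : ℕ) :
    ∀ q ∈ Q m D k, ∀ q' ∈ Q m D k, m ^ k ≤ (m - 1) * (proj 0 q - proj 1 q') + 1 := by
  induction k with
  | zero =>
    intro q hq q' hq'
    simp only [Q, Finset.mem_singleton] at hq hq'
    subst hq hq'
    simp [proj]
  | succ k ih =>
    intro q hq q' hq'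
    obtain ⟨d, hd, q₀, hq₀, rfl⟩ := mem_Q_succ.mp hq
    obtain ⟨d', hd', q₀', hq₀', rfl⟩ := mem_Q_succ.mp hq'
    rw [proj_digit, proj_digit]
    have h1 := ih q₀ hq₀ q₀' hq₀'
    have h2 := hδ d hd d' hd'
    have hm1 : 0 ≤ m - 1 := by linarith
    have hm0 : 0 ≤ m := by linarith
    have h3 : m * m ^ k ≤ m * ((m - 1) * (proj 0 q₀ - proj 1 q₀') + 1) :=
      mul_le_mul_of_nonneg_left h1 hm0
    have h4 : (m - 1) * 1 ≤ (m - 1) * (proj 0 d - proj 1 d') :=
      mul_le_mul_of_nonneg_left h2 hm1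
    rw [pow_succ]
    nlinarith

lemma pos_final {m : ℤ} {D : Finset (ℤ × ℤ)} (hm : 2 ≤ m)
    (hδ : ∀ d ∈ D, ∀ d' ∈ D, 1 ≤ proj 0 d - proj 1 d') (k : ℕ) :
    ∀ x ∈ img m D 0 (k + 1), ∀ a ∈ img m D 1 (k + 1), 1 ≤ x - a := by
  intro x hx a ha
  simp only [img, Finset.mem_image] at hx ha
  obtain ⟨q, hq, rfl⟩ := hx
  obtain ⟨q', hq', rfl⟩ := ha
  have h1 := pos_aux (by linarith) hδ (k + 1) q hq q' hq'
  have h2 : m ≤ m ^ (k + 1) := by
    rw [pow_succ]
    have : 1 ≤ m ^ k := one_le_pow₀ (by linarith)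
    nlinarith
  have h3 : 0 ≤ (m - 1) * (proj 0 q - proj 1 q' - 1) := by nlinarith
  by_contra hcon
  push Not at hcon
  have h4 : proj 0 q - proj 1 q' - 1 < 0 := by linarith
  have h5 : (m - 1) * (proj 0 q - proj 1 q' - 1) < 0 :=
    mul_neg_of_pos_of_neg (by linarith) h4
  linarith

lemma t_aux {m T : ℤ} {D : Finset (ℤ × ℤ)} (hm : 1 ≤ m) (hT : ∀ d ∈ D, d.2 ≤ T) (k : ℕ) :
    ∀ q ∈ Q m D k, (m - 1) * q.2 + T ≤ T * m ^ k := by
  induction k with
  | zero =>
    intro q hq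
    simp only [Q, Finset.mem_singleton] at hq
    subst hq
    simp
  | succ k ih =>
    intro q hq
    obtain ⟨d, hd, q₀, hq₀, rfl⟩ := mem_Q_succ.mp hq
    have h1 := ih q₀ hq₀
    have h2 := hT d hd
    have hm1 : 0 ≤ m - 1 := by linarith
    have hm0 : 0 ≤ m := by linarith
    have h3 := mul_le_mul_of_nonneg_left h1 hm0
    have h4 := mul_le_mul_of_nonneg_left h2 hm1
    simp only
    rw [pow_succ]
    nlinarith

lemma t_final {m T : ℤ} {D : Finset (ℤ × ℤ)} (hm : 2 ≤ m) (hT0 : 0 ≤ T)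
    (hT : ∀ d ∈ D, d.2 ≤ T) (k : ℕ) {q : ℤ × ℤ} (hq : q ∈ Q m D k) :
    (q.2 : ℝ) ≤ (T : ℝ) * (m : ℝ) ^ k := by
  have h1 := t_aux (by linarith) hT k q hq
  have h2 : q.2 ≤ T * m ^ k := by
    by_cases h0 : q.2 ≤ 0
    · have : 0 ≤ T * m ^ k := mul_nonneg hT0 (pow_nonneg (by linarith) _)
      linarith
    · push Not at h0
      nlinarith
  exact_mod_cast h2

end Vale.Agent.P141
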