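import Vale.Agent.P141.Digits

open MeasureTheory Filter Topology Set
open scoped ENNReal NNReal SchwartzMap

namespace Vale.Agent.P141

/-- The finite digit gadget: pairs `(x, t)` with `x` running over a complete residue system
modulo `72`, such that each of `x - t`, `x - 2 t`, `x - 3 t` takes only `12` values. -/
def gadget : Finset (ℤ × ℤ) :=
  {(0, 151), (-71, 120), (-70, 121), (3, 152), (4, 153), (-67, 122), (-138, 97), (-137, 98), (-64, 129), (-63, 130), (10, 161), (-61, 130), (-60, 131), (-59, 132), (14, 163), (-57, 132), (-56, 133), (-127, 108), (-126, 109), (-53, 140), (-52, 141), (21, 172), (-50, 141), (-49, 142), (24, 173), (25, 174), (-118, 97), (-45, 128), (-44, 129), (-115, 98), (-42, 151), (-41, 130), (-40, 131), (-39, 152), (-38, 153), (-37, 132), (-108, 107), (-35, 154), (-34, 139), (-105, 108), (-104, 109), (-31, 140), (-30, 141), (-101, 110), (-100, 111), (-27, 142),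 (-26, 143), (-97, 118), (-96, 119), (-23, 150), (-94, 119), (-93, 120), (-20, 151), (-19, 152), (-90, 121), (-89, 122), (-16, 153), (-15, 154), (-86, 129), (-85, 108), (-12, 161), (-83, 130), (-82, 131), (-9, 162), (-8, 163), (-79, 132), (-6, 163), (-5, 164), (-148, 87), (-75, 118), (-74, 119), (-1, 150)}

lemma gadget_card₁ : (gadget.image (proj 1)).card ≤ 12 := by decide +kernel
lemma gadget_card₂ : (gadget.image (proj 2)).card ≤ 12 := by decide +kernel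
lemma gadget_card₃ : (gadget.image (proj 3)).card ≤ 12 := by decide +kernel
lemma gadget_card₀ : (gadget.image (proj 0)).card = 72 := by decide +kernel

lemma gadget_res : ∀ u ∈ gadget.image (proj 0), ∀ v ∈ gadget.image (proj 0),
    (72 : ℤ) ∣ u - v → u = v := by decide +kernel

lemma gadget_pos : ∀ d ∈ gadget, ∀ d' ∈ gadget, 1 ≤ proj 0 d - proj 1 d' := by decide +kernel

lemma gadget_t : ∀ d ∈ gadget, d.2 ≤ 174 := by decide +kernel

/-- The real-variable contradiction. -/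
lemma numeric_contra {K σ : ℝ} (hσ : 12 / 5 ≤ σ) (hK : 0 ≤ K)
    (h : ∀ N : ℕ, 1 / (20 * (174 * (72 : ℝ) ^ (N + 1) + 1)) * ((72 : ℝ) ^ (N + 1) / 20) ^ σ
      ≤ K * ((12 : ℝ) ^ (N + 1)) ^ σ) : False := by
  have hσ0 : 0 < σ := by linarith
  -- the base
  set β : ℝ := (72 : ℝ) ^ σ / ((12 : ℝ) ^ σ * 72) with hβ
  have h6 : (72 : ℝ) ^ σ = (6 : ℝ) ^ σ * (12 : ℝ) ^ σ := by
    rw [← Real.mul_rpow (by norm_num) (by norm_num)]
    norm_num
  have h12pos : 0 < (12 : ℝ) ^ σ := Real.rpow_pos_of_pos (by norm_num) _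
  have h6big : 72 < (6 : ℝ) ^ σ := by
    have h1 : (6 : ℝ) ^ (12 / 5 : ℝ) ≤ (6 : ℝ) ^ σ :=
      Real.rpow_le_rpow_of_exponent_le (by norm_num) hσ
    have h2 : (72 : ℝ) < (6 : ℝ) ^ (12 / 5 : ℝ) := by
      by_contra hcon
      push Not at hcon
      have h3 : ((6 : ℝ) ^ (12 / 5 : ℝ)) ^ (5 : ℕ) ≤ (72 : ℝ) ^ (5 : ℕ) :=
        pow_le_pow_left₀ (Real.rpow_nonneg (by norm_num) _) hcon 5
      rw [← Real.rpow_natCast, ← Real.rpow_mul (by norm_num)] at h3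
      norm_num at h3
    linarith
  have hβ1 : 1 < β := by
    rw [hβ, h6, one_lt_div (by positivity)]
    nlinarith
  set K' : ℝ := K * (20 * 175 * (20 : ℝ) ^ σ) with hK'
  obtain ⟨n, hn⟩ := pow_unbounded_of_one_lt K' hβ1
  have hβpos : 0 < β := by linarith
  have hmono : β ^ n ≤ β ^ (n + 1) := pow_le_pow_right₀ hβ1.le (Nat.le_succ n)
  have hkey := h n
  set N := n + 1 with hN
  have h72N : (1 : ℝ) ≤ (72 : ℝ) ^ N := one_le_pow₀ (by norm_num)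
  have h20σ : 0 < (20 : ℝ) ^ σ := Real.rpow_pos_of_pos (by norm_num) _
  have e1 : ((72 : ℝ) ^ N / 20) ^ σ = ((72 : ℝ) ^ σ) ^ N / (20 : ℝ) ^ σ := by
    rw [Real.div_rpow (by positivity) (by norm_num), Real.rpow_pow_comm (by norm_num)]
  have e2 : ((12 : ℝ) ^ N) ^ σ = ((12 : ℝ) ^ σ) ^ N := by
    rw [Real.rpow_pow_comm (by norm_num)]
  rw [e1, e2] at hkey
  have h72σ : 0 < (72 : ℝ) ^ σ := Real.rpow_pos_of_pos (by norm_num) _
  have hlow : 1 / (20 * (175 * (72 : ℝ) ^ N)) ≤ 1 / (20 * (174 * (72 : ℝ) ^ N + 1)) := by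
    apply one_div_le_one_div_of_le (by positivity)
    nlinarith
  have hstep : 1 / (20 * (175 * (72 : ℝ) ^ N)) * (((72 : ℝ) ^ σ) ^ N / (20 : ℝ) ^ σ)
      ≤ K * ((12 : ℝ) ^ σ) ^ N := by
    refine le_trans ?_ hkey
    apply mul_le_mul_of_nonneg_right hlow (by positivity)
  have hβN : β ^ N = ((72 : ℝ) ^ σ) ^ N / (((12 : ℝ) ^ σ) ^ N * (72 : ℝ) ^ N) := by
    rw [hβ, div_pow, mul_pow]
  have hfinal : β ^ N ≤ K' := by
    rw [hβN, hK', div_le_iff₀ (by positivity)]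
    have hpos2 : 0 < 20 * (175 * (72 : ℝ) ^ N) * (20 : ℝ) ^ σ := by positivity
    have h3 := mul_le_mul_of_nonneg_right hstep hpos2.le
    have e3 : 1 / (20 * (175 * (72 : ℝ) ^ N)) * (((72 : ℝ) ^ σ) ^ N / (20 : ℝ) ^ σ)
        * (20 * (175 * (72 : ℝ) ^ N) * (20 : ℝ) ^ σ) = ((72 : ℝ) ^ σ) ^ N := by
      field_simp
    rw [e3] at h3
    calc ((72 : ℝ) ^ σ) ^ N ≤ _ := h3
      _ = _ := by ring
  linarith

/-- Unboundedness at every Holder tuple with `r ≤ 5/12`, from the properties of a digit set. -/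
theorem main_of_digits {D : Finset (ℤ × ℤ)} (hD₁ : (D.image (proj 1)).card ≤ 12)
    (hD₂ : (D.image (proj 2)).card ≤ 12) (hD₃ : (D.image (proj 3)).card ≤ 12)
    (hD₀ : (D.image (proj 0)).card = 72)
    (hDres : ∀ u ∈ D.image (proj 0), ∀ v ∈ D.image (proj 0), (72 : ℤ) ∣ u - v → u = v)
    (hDpos : ∀ d ∈ D, ∀ d' ∈ D, 1 ≤ proj 0 d - proj 1 d') (hDt : ∀ d ∈ D, d.2 ≤ 174)
    {p₁ p₂ p₃ r : ℝ≥0∞} (hH : IsHolderTuple p₁ p₂ p₃ r) (hr : r ≤ 5 / 12) :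
    ¬ BoundedAt p₁ p₂ p₃ r := by
  obtain ⟨hp₁, hp₂, hp₃, hr0, hrtop, hsum⟩ := hH
  rintro ⟨K, hK⟩
  have hr0' : r ≠ 0 := hr0.ne'
  have hrtop' : r ≠ ⊤ := hrtop.ne
  have hp₁0 : p₁ ≠ 0 := (zero_lt_one.trans hp₁).ne'
  have hp₂0 : p₂ ≠ 0 := (zero_lt_one.trans hp₂).ne'
  have hp₃0 : p₃ ≠ 0 := (zero_lt_one.trans hp₃).ne'
  set s₁ : ℝ := 1 / p₁.toReal with hs₁
  set s₂ : ℝ := 1 / p₂.toReal with hs₂
  set s₃ : ℝ := 1 / p₃.toReal with hs₃
  set σ : ℝ := 1 / r.toReal with hσdef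
  have hs₁0 : 0 ≤ s₁ := by positivity
  have hs₂0 : 0 ≤ s₂ := by positivity
  have hs₃0 : 0 ≤ s₃ := by positivity
  have hσsum : σ = s₁ + s₂ + s₃ := by
    have h1 : (1 / r).toReal = ((1 / p₁ + 1 / p₂ + 1 / p₃)).toReal := by rw [hsum]
    have hf₁ : 1 / p₁ ≠ ⊤ := by simpa [ENNReal.div_eq_top] using hp₁0
    have hf₂ : 1 / p₂ ≠ ⊤ := by simpa [ENNReal.div_eq_top] using hp₂0
    have hf₃ : 1 / p₃ ≠ ⊤ := by simpa [ENNReal.div_eq_top] using hp₃0
    rw [ENNReal.toReal_add (ENNReal.add_ne_top.mpr ⟨hf₁, hf₂⟩) hf₃,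
      ENNReal.toReal_add hf₁ hf₂] at h1
    simpa [ENNReal.toReal_div, hs₁, hs₂, hs₃, hσdef] using h1
  have hσ : 12 / 5 ≤ σ := by
    have hrr : r.toReal ≤ 5 / 12 := by
      have := ENNReal.toReal_mono (by simp [ENNReal.div_eq_top]) hr
      simpa [ENNReal.toReal_div] using this
    have hrpos : 0 < r.toReal := ENNReal.toReal_pos hr0' hrtop'
    rw [hσdef, le_div_iff₀ hrpos]
    nlinarith
  apply numeric_contra hσ K.coe_nonneg
  intro N
  set A := img 72 D 1 (N + 1) with hA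
  set B := img 72 D 2 (N + 1) with hB
  set C := img 72 D 3 (N + 1) with hC
  set X := img 72 D 0 (N + 1) with hXdef
  set L : ℝ := 174 * (72 : ℝ) ^ (N + 1) with hL
  have hL0 : 0 ≤ L := by positivity
  have hX : ∀ x ∈ X, ∃ t₀ : ℤ, x - t₀ ∈ A ∧ x - 2 * t₀ ∈ B ∧ x - 3 * t₀ ∈ C ∧ (t₀ : ℝ) ≤ L := by
    intro x hx
    obtain ⟨q, hq, rfl⟩ := Finset.mem_image.mp hx
    refine ⟨q.2, ?_, ?_, ?_, ?_⟩
    · exact Finset.mem_image.mpr ⟨q, hq, by simp [proj]⟩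
    · exact Finset.mem_image.mpr ⟨q, hq, by simp [proj]⟩
    · exact Finset.mem_image.mpr ⟨q, hq, by simp [proj]⟩
    · have := t_final (m := 72) (T := 174) (D := D) (by norm_num) (by norm_num) hDt
        (N + 1) hq
      simpa [hL] using this
  have hx : ∀ x ∈ X, ∀ a ∈ A, (1 : ℤ) ≤ x - a :=
    pos_final (m := 72) (by norm_num) hDpos N
  have hineq := gadget_ineq (K := K) hK hr0' hrtop' hL0 hX hx
  -- cardinalities
  have hcA : (A.card : ℝ≥0∞) ≤ ENNReal.ofReal ((12 : ℝ) ^ (N + 1)) := by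
    have h1 : A.card ≤ 12 ^ (N + 1) := card_img_le hD₁ (N + 1)
    rw [← ENNReal.ofReal_natCast]
    apply ENNReal.ofReal_le_ofReal
    exact_mod_cast h1
  have hcB : (B.card : ℝ≥0∞) ≤ ENNReal.ofReal ((12 : ℝ) ^ (N + 1)) := by
    have h1 : B.card ≤ 12 ^ (N + 1) := card_img_le hD₂ (N + 1)
    rw [← ENNReal.ofReal_natCast]
    apply ENNReal.ofReal_le_ofReal
    exact_mod_cast h1
  have hcC : (C.card : ℝ≥0∞) ≤ ENNReal.ofReal ((12 : ℝ) ^ (N + 1)) := by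
    have h1 : C.card ≤ 12 ^ (N + 1) := card_img_le hD₃ (N + 1)
    rw [← ENNReal.ofReal_natCast]
    apply ENNReal.ofReal_le_ofReal
    exact_mod_cast h1
  have hcX : ((72 : ℝ) ^ (N + 1)) ≤ (X.card : ℝ) := by
    have h1 := card_img_zero_ge (m := 72) (D := D) (by norm_num) hDres (N + 1)
    rw [hD₀] at h1
    exact_mod_cast h1
  set E : ℝ≥0∞ := ENNReal.ofReal ((12 : ℝ) ^ (N + 1)) with hE
  have hEpos : (12 : ℝ) ^ (N + 1) > 0 := by positivity
  have hE0 : E ≠ 0 := by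
    rw [hE]; simpa using hEpos
  have hEtop : E ≠ ⊤ := ENNReal.ofReal_ne_top
  have hupper : (A.card : ℝ≥0∞) ^ s₁ * (B.card : ℝ≥0∞) ^ s₂ * (C.card : ℝ≥0∞) ^ s₃ ≤ E ^ σ := by
    rw [hσsum, ENNReal.rpow_add _ _ hE0 hEtop, ENNReal.rpow_add _ _ hE0 hEtop]
    gcongr
  have hlower : ENNReal.ofReal ((72 : ℝ) ^ (N + 1) / 20) ≤ ENNReal.ofReal ((X.card : ℝ) / 20) := by
    apply ENNReal.ofReal_le_ofReal
    apply div_le_div_of_nonneg_right hcX (by norm_num)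
  have hσ0 : 0 < σ := by linarith
  have hchain : ENNReal.ofReal (1 / (20 * (L + 1))) *
      (ENNReal.ofReal ((72 : ℝ) ^ (N + 1) / 20)) ^ σ ≤ (K : ℝ≥0∞) * E ^ σ := by
    calc _ ≤ ENNReal.ofReal (1 / (20 * (L + 1))) * (ENNReal.ofReal ((X.card : ℝ) / 20)) ^ σ := by
          gcongr
      _ ≤ _ := hineq
      _ ≤ _ := by gcongr
  have hnn1 : 0 < (72 : ℝ) ^ (N + 1) / 20 := by positivity
  rw [ENNReal.ofReal_rpow_of_pos hnn1, hE, ENNReal.ofReal_rpow_of_pos hEpos,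
    ← ENNReal.ofReal_mul (by positivity)] at hchain
  have hKE : (K : ℝ≥0∞) * ENNReal.ofReal (((12 : ℝ) ^ (N + 1)) ^ σ)
      = ENNReal.ofReal ((K : ℝ) * ((12 : ℝ) ^ (N + 1)) ^ σ) := by
    rw [ENNReal.ofReal_mul K.coe_nonneg, ENNReal.ofReal_coe_nnreal]
  rw [hKE, ENNReal.ofReal_le_ofReal_iff (by positivity)] at hchain
  exact hchain

/-- Unboundedness at every Holder tuple with `r ≤ 5/12`. -/
theorem main_unbounded {p₁ p₂ p₃ r : ℝ≥0∞} (hH : IsHolderTuple p₁ p₂ p₃ r) (hr : r ≤ 5 / 12) :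
    ¬ BoundedAt p₁ p₂ p₃ r :=
  main_of_digits gadget_card₁ gadget_card₂ gadget_card₃ gadget_card₀ gadget_res gadget_pos gadget_t
    hH hr

end Vale.Agent.P141
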